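import Vale.Agent.Lib.P162.Main

/-!
P162: the Thorp shuffle of `2 ^ D` cards mixes in at most `725 D ^ 2` shuffles.
Here `D = d + 1` and the deck has `2 * 2 ^ d` positions.
-/

namespace Vale.Agent.Results.P162.A_main

open Vale.Agent.Lib.P162

/-- For a deck of `n = 2 * 2 ^ d = 2 ^ (d + 1)` cards, the Thorp shuffle mixes in at most
`725 (log₂ n) ^ 2` shuffles: `t_mix(n) ≤ 725 (d + 1) ^ 2`, and the total variation distance to the
uniform law on the symmetric group is at most `1 / 4` for all `t ≥ 725 (d + 1) ^ 2`. -/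
theorem result (d : ℕ) :
    tmix (2 ^ d) ≤ 725 * (d + 1) ^ 2 ∧
      ∀ t : ℕ, 725 * (d + 1) ^ 2 ≤ t →
        tv (convPow (thorpLaw (2 ^ d)) t) (unif (Equiv.Perm (Fin (2 * 2 ^ d)))) ≤ 1 / 4 :=
  ⟨tmix_bound d, fun t ht => main_bound d t ht⟩

end Vale.Agent.Results.P162.A_main
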